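import Vale.Agent.P076.R2.H831V.Spec

/-!
# P076 : local constancy on the paraboloid, the transfer
-/

open MeasureTheory Complex FourierTransform Filter Topology Set
open scoped ENNReal NNReal

namespace Vale.Agent.P076.R2.H597

open Vale.Agent.P076 Vale.Agent.P076.H791 Vale.Agent.P076.R2.H45 Vale.Agent.P076.R2.H831
open Vale.Agent.P076.R2.H831V

variable {n : ℕ}

/-- the real Gaussian on space-time -/
noncomputable def gr (c : ℝ) (p : E n × ℝ) : ℝ := Real.exp (-(c * (‖p.1‖ ^ 2 + p.2 ^ 2)))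

lemma gr_pos (c : ℝ) (p : E n × ℝ) : 0 < gr c p := Real.exp_pos _

lemma measurable_gam (c : ℝ) : Measurable fun p : E n × ℝ => gam c p.1 p.2 := by
  unfold gam
  fun_prop

lemma integrable_expn {V : Type*} [NormedAddCommGroup V] [InnerProductSpace ℝ V]
    [FiniteDimensional ℝ V] [MeasurableSpace V] [BorelSpace V] {c : ℝ} (hc : 0 < c) :
    Integrable fun x : V => Real.exp (-(c * ‖x‖ ^ 2)) := by
  have h := (GaussianFourier.integrable_cexp_neg_mul_sq_norm_add (V := V) (b := (c : ℂ))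
    (by simpa using hc) 0 0).norm
  refine h.congr (Eventually.of_forall fun x => ?_)
  simp only [zero_mul, add_zero]
  rw [Complex.norm_exp, show (-(c : ℂ) * (‖x‖ : ℂ) ^ 2) = ((-(c * ‖x‖ ^ 2) : ℝ) : ℂ) by
    push_cast; ring, Complex.ofReal_re]

lemma integrable_gr {c : ℝ} (hc : 0 < c) : Integrable (gr (n := n) c) := by
  have h1 := (integrable_expn (V := E n) hc).mul_prod (integrable_expn (V := ℝ) hc)
  refine h1.congr (Eventually.of_forall fun p => ?_)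
  simp only [gr]
  rw [← Real.exp_add, Real.norm_eq_abs, sq_abs]
  congr 1
  ring

lemma lint_gam_ne_top {c : ℝ} (hc : 0 < c) : ∫⁻ p : E n × ℝ, gam c p.1 p.2 ≠ ⊤ := by
  have h := (integrable_gr (n := n) hc).lintegral_lt_top
  exact h.ne

lemma ft1 {V : Type*} [NormedAddCommGroup V] [InnerProductSpace ℝ V]
    [FiniteDimensional ℝ V] [MeasurableSpace V] [BorelSpace V] (x : V) :
    ∫ v : V, ((Real.exp (-(Real.pi * ‖v‖ ^ 2)) : ℝ) : ℂ) *
      cexp (((2 * Real.pi * inner ℝ x v : ℝ) : ℂ) * I) =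
      ((Real.exp (-(Real.pi * ‖x‖ ^ 2)) : ℝ) : ℂ) := by
  have h := GaussianFourier.integral_cexp_neg_mul_sq_norm_add (V := V) (b := (Real.pi : ℂ))
    (by simpa using Real.pi_pos) (2 * Real.pi * I) x
  have e1 : ∀ v : V, ((Real.exp (-(Real.pi * ‖v‖ ^ 2)) : ℝ) : ℂ) *
      cexp (((2 * Real.pi * inner ℝ x v : ℝ) : ℂ) * I)
      = cexp (-(Real.pi : ℂ) * (‖v‖ : ℂ) ^ 2 + 2 * Real.pi * I * (inner ℝ x v : ℝ)) := by
    intro v
    rw [Complex.ofReal_exp, ← Complex.exp_add]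
    congr 1
    push_cast
    ring
  have hpi : (Real.pi : ℂ) ≠ 0 := by exact_mod_cast Real.pi_ne_zero
  simp_rw [e1]
  rw [h, div_self hpi, Complex.one_cpow, one_mul, Complex.ofReal_exp]
  congr 1
  push_cast
  rw [mul_pow, mul_pow, Complex.I_sq]
  field_simp
  ring

lemma ft2 (x : E n) (t : ℝ) : ∫ p : E n × ℝ, ((gr Real.pi p : ℝ) : ℂ) *
      cexp (((2 * Real.pi * (inner ℝ x p.1 + t * p.2) : ℝ) : ℂ) * I) =
      ((Real.exp (-(Real.pi * (‖x‖ ^ 2 + t ^ 2))) : ℝ) : ℂ) := by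
  have h1 := integral_prod_mul (μ := (volume : Measure (E n))) (ν := (volume : Measure ℝ))
    (fun v : E n => ((Real.exp (-(Real.pi * ‖v‖ ^ 2)) : ℝ) : ℂ) *
      cexp (((2 * Real.pi * inner ℝ x v : ℝ) : ℂ) * I))
    (fun v : ℝ => ((Real.exp (-(Real.pi * ‖v‖ ^ 2)) : ℝ) : ℂ) *
      cexp (((2 * Real.pi * inner ℝ t v : ℝ) : ℂ) * I))
  rw [ft1, ft1] at h1
  have e2 : ((Real.exp (-(Real.pi * (‖x‖ ^ 2 + t ^ 2))) : ℝ) : ℂ) =
      ((Real.exp (-(Real.pi * ‖x‖ ^ 2)) : ℝ) : ℂ) *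
        ((Real.exp (-(Real.pi * ‖t‖ ^ 2)) : ℝ) : ℂ) := by
    rw [← Complex.ofReal_mul, ← Real.exp_add, Real.norm_eq_abs, sq_abs]
    congr 2
    ring
  rw [e2, ← h1]
  refine integral_congr_ae (Eventually.of_forall fun p => ?_)
  simp only [gr]
  have e3 : (inner ℝ t p.2 : ℝ) = t * p.2 := by
    simp [mul_comm]
  rw [e3, Real.norm_eq_abs, sq_abs]
  rw [mul_mul_mul_comm, ← Complex.ofReal_mul, ← Real.exp_add, ← Complex.exp_add]
  congr 2
  · congr 1
    ring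
  · push_cast
    ring

/-- the modulated amplitude -/
noncomputable def ha (A : Set (E n)) (s : E n → ℝ) (h : E n → ℂ) : E n → ℂ :=
  A.indicator fun x => h x * ((Real.exp (Real.pi * (‖x‖ ^ 2 + s x ^ 2)) : ℝ) : ℂ)

/-- its bound -/
noncomputable def MM (r : ℕ) : ℝ := Real.exp (Real.pi * ((r : ℝ) ^ 2 + (r : ℝ) ^ 2))

/-- the extension to space-time -/
noncomputable def NN (A : Set (E n)) (s : E n → ℝ) (h : E n → ℂ) (q : E n × ℝ) : ℂ :=
  ∫ x in A, ha A s h x * cexp (((2 * Real.pi * (inner ℝ x q.1 - s x * q.2) : ℝ) : ℂ) * I)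

lemma MM_pos (r : ℕ) : 0 < MM r := Real.exp_pos _

lemma measurable_ha {r : ℕ} {A : Set (E n)} {s : E n → ℝ} {h : E n → ℂ} (a : Adm r A s h) :
    Measurable (ha A s h) := by
  have h1 := a.ms
  have h2 := a.mh
  refine Measurable.indicator ?_ a.mA
  fun_prop

lemma norm_ha_le {r : ℕ} {A : Set (E n)} {s : E n → ℝ} {h : E n → ℂ} (a : Adm r A s h)
    (x : E n) : ‖ha A s h x‖ ≤ MM r := by
  unfold ha
  by_cases hx : x ∈ A
  · rw [indicator_of_mem hx, norm_mul, Complex.norm_real, Real.norm_eq_abs,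
      abs_of_pos (Real.exp_pos _)]
    have h1 : ‖x‖ ≤ r := by
      have := a.sub hx
      rw [mem_ball_zero_iff] at this
      exact this.le
    have h2 : ‖x‖ ^ 2 ≤ (r : ℝ) ^ 2 := pow_le_pow_left₀ (norm_nonneg _) h1 2
    have h3 : s x ^ 2 ≤ (r : ℝ) ^ 2 := by
      rw [← sq_abs (s x)]
      exact pow_le_pow_left₀ (abs_nonneg _) (a.bs x) 2
    calc ‖h x‖ * Real.exp (Real.pi * (‖x‖ ^ 2 + s x ^ 2))
        ≤ 1 * Real.exp (Real.pi * (‖x‖ ^ 2 + s x ^ 2)) :=
          mul_le_mul_of_nonneg_right (a.bh x) (Real.exp_pos _).le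
      _ ≤ MM r := by
          rw [one_mul, MM]
          exact Real.exp_le_exp.2 (mul_le_mul_of_nonneg_left (by linarith) Real.pi_pos.le)
  · rw [indicator_of_notMem hx, norm_zero]
    exact (MM_pos r).le

lemma ph0 (x : E n) (t : ℝ) (η : E n) :
    ph x t 0 η = cexp (((2 * Real.pi * (inner ℝ x η - t * ‖η‖ ^ 2) : ℝ) : ℂ) * I) := by
  unfold ph
  congr 1
  push_cast
  ring

lemma split_ph (x : E n) (t : ℝ) (η v : E n) (w : ℝ) :
    cexp (((2 * Real.pi * (inner ℝ x (η + v) - t * (‖η‖ ^ 2 - w)) : ℝ) : ℂ) * I) =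
      ph x t 0 η * cexp (((2 * Real.pi * (inner ℝ x v + t * w) : ℝ) : ℂ) * I) := by
  rw [ph0, ← Complex.exp_add]
  congr 1
  rw [inner_add_right]
  push_cast
  ring

lemma measurable_ker {r : ℕ} {A : Set (E n)} {s : E n → ℝ} {h : E n → ℂ} (a : Adm r A s h) :
    Measurable fun q : (E n × ℝ) × E n => ha A s h q.2 *
      cexp (((2 * Real.pi * (inner ℝ q.2 q.1.1 - s q.2 * q.1.2) : ℝ) : ℂ) * I) := by
  have h1 := a.ms
  have h2 := measurable_ha a
  fun_prop

lemma measurable_NN {r : ℕ} {A : Set (E n)} {s : E n → ℝ} {h : E n → ℂ} (a : Adm r A s h) :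
    Measurable (NN A s h) :=
  ((measurable_ker a).stronglyMeasurable.integral_prod_right
    (ν := (volume : Measure (E n)).restrict A)).measurable

lemma Phi_eq {r : ℕ} {A : Set (E n)} {s : E n → ℝ} {h : E n → ℂ} (a : Adm r A s h) (η : E n) :
    Phi A s h η = ∫ p : E n × ℝ, ((gr Real.pi p : ℝ) : ℂ) *
      NN A s h (η + p.1, ‖η‖ ^ 2 - p.2) := by
  have : IsFiniteMeasure ((volume : Measure (E n)).restrict A) :=
    ⟨by rw [Measure.restrict_apply_univ]; exact a.vol⟩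
  unfold NN
  simp_rw [← integral_const_mul]
  rw [integral_integral_swap]
  · unfold Phi
    refine setIntegral_congr_fun a.mA fun x hx => ?_
    have e1 : ∀ p : E n × ℝ, ((gr Real.pi p : ℝ) : ℂ) * (ha A s h x *
        cexp (((2 * Real.pi * (inner ℝ x (η + p.1) - s x * (‖η‖ ^ 2 - p.2)) : ℝ) : ℂ) * I)) =
        (ha A s h x * ph x (s x) 0 η) * (((gr Real.pi p : ℝ) : ℂ) *
          cexp (((2 * Real.pi * (inner ℝ x p.1 + s x * p.2) : ℝ) : ℂ) * I)) := by
      intro p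
      rw [split_ph]
      ring
    simp_rw [e1]
    rw [integral_const_mul, ft2]
    unfold ha
    rw [indicator_of_mem hx]
    have e2 : ((Real.exp (Real.pi * (‖x‖ ^ 2 + s x ^ 2)) : ℝ) : ℂ) *
        ((Real.exp (-(Real.pi * (‖x‖ ^ 2 + s x ^ 2))) : ℝ) : ℂ) = 1 := by
      rw [← Complex.ofReal_mul, ← Real.exp_add, add_neg_cancel, Real.exp_zero, Complex.ofReal_one]
    calc h x * ph x (s x) 0 η = h x * ph x (s x) 0 η * 1 := (mul_one _).symm
      _ = _ := by rw [← e2]; ring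
  · have hb : Integrable (fun q : (E n × ℝ) × E n => gr Real.pi q.1 * MM r)
        ((volume : Measure (E n × ℝ)).prod ((volume : Measure (E n)).restrict A)) :=
      (integrable_gr Real.pi_pos).mul_prod (integrable_const (MM r))
    refine hb.mono' ?_ (Eventually.of_forall fun q => ?_)
    · have h1 := a.ms
      have h2 := measurable_ha a
      have h3 : Measurable (gr (n := n) Real.pi) := by unfold gr; fun_prop
      refine Measurable.aestronglyMeasurable ?_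
      unfold Function.uncurry
      fun_prop
    · simp only [Function.uncurry]
      rw [norm_mul, norm_mul, Complex.norm_real, Real.norm_eq_abs, abs_of_pos (gr_pos _ _),
        Complex.norm_exp_ofReal_mul_I, mul_one]
      exact mul_le_mul_of_nonneg_left (norm_ha_le a _) (gr_pos _ _).le

lemma cs_gam {F : E n × ℝ → ℝ≥0∞} (hF : Measurable F) (c : ℝ) :
    (∫⁻ p : E n × ℝ, gam c p.1 p.2 * F p) ^ 2 ≤
      (∫⁻ p : E n × ℝ, gam c p.1 p.2) * ∫⁻ p : E n × ℝ, gam c p.1 p.2 * F p ^ 2 := by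
  have hg := measurable_gam (n := n) c
  have hg0 : ∀ p : E n × ℝ, gam c p.1 p.2 ≠ 0 := fun p => by
    unfold gam
    rw [Ne, ENNReal.ofReal_eq_zero, not_le]
    exact Real.exp_pos _
  have hgt : ∀ p : E n × ℝ, gam c p.1 p.2 ≠ ⊤ := fun p => ENNReal.ofReal_ne_top
  have h := cs_weight (μ := (volume : Measure (E n × ℝ)))
    (f := fun p => gam c p.1 p.2 * F p) (u := fun p => (gam c p.1 p.2)⁻¹)
    (hg.mul hF).aemeasurable hg.inv.aemeasurable
    (Eventually.of_forall fun p => ENNReal.inv_ne_zero.2 (hgt p))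
    (Eventually.of_forall fun p hp => absurd (ENNReal.inv_eq_top.1 hp) (hg0 p))
  refine h.trans (le_of_eq ?_)
  simp only [inv_inv]
  congr 1
  refine lintegral_congr fun p => ?_
  rw [mul_pow, pow_two (gam c p.1 p.2), ← mul_assoc, ← mul_assoc,
    ENNReal.inv_mul_cancel (hg0 p) (hgt p), one_mul]

lemma lint_shift {F : E n × ℝ → ℝ≥0∞} (hF : Measurable F) (c : ℝ) (η : E n) :
    ∫⁻ p : E n × ℝ, gam c p.1 p.2 * F (η + p.1, ‖η‖ ^ 2 - p.2) =
      ∫⁻ q : E n × ℝ, gam c (q.1 - η) (‖η‖ ^ 2 - q.2) * F q := by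
  have hmp : MeasurePreserving (Prod.map (fun v : E n => η + v) (fun w : ℝ => ‖η‖ ^ 2 - w))
      (volume : Measure (E n × ℝ)) (volume : Measure (E n × ℝ)) :=
    (measurePreserving_add_left volume η).prod (Measure.measurePreserving_sub_left volume _)
  have hg := measurable_gam (n := n) c
  have hm : Measurable fun q : E n × ℝ => gam c (q.1 - η) (‖η‖ ^ 2 - q.2) * F q := by
    refine Measurable.mul ?_ hF
    unfold gam
    fun_prop
  have h := hmp.lintegral_comp hm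
  rw [← h]
  refine lintegral_congr fun p => ?_
  simp only [Prod.map, add_sub_cancel_left, sub_sub_cancel]

lemma tonelli1 {F : E n × ℝ → ℝ≥0∞} (hF : Measurable F) {V : E n → ℝ≥0∞} (hV : Measurable V)
    (c : ℝ) :
    ∫⁻ η, V η * ∫⁻ p : E n × ℝ, gam c p.1 p.2 * F (η + p.1, ‖η‖ ^ 2 - p.2) =
      ∫⁻ q : E n × ℝ, F q * KV c V q.1 q.2 := by
  have hg := measurable_gam (n := n) c
  simp_rw [lint_shift hF]
  have hm : Measurable fun z : E n × (E n × ℝ) =>
      gam c (z.2.1 - z.1) (‖z.1‖ ^ 2 - z.2.2) := by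
    unfold gam
    fun_prop
  have e1 : ∀ η, V η * ∫⁻ q : E n × ℝ, gam c (q.1 - η) (‖η‖ ^ 2 - q.2) * F q =
      ∫⁻ q : E n × ℝ, V η * (gam c (q.1 - η) (‖η‖ ^ 2 - q.2) * F q) := by
    intro η
    rw [lintegral_const_mul]
    have h2 : Measurable fun q : E n × ℝ => gam c (q.1 - η) (‖η‖ ^ 2 - q.2) := by
      unfold gam
      fun_prop
    exact h2.mul hF
  simp_rw [e1]
  rw [lintegral_lintegral_swap]
  · refine lintegral_congr fun q => ?_
    unfold KV
    rw [← lintegral_const_mul]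
    · refine lintegral_congr fun η => ?_
      ring
    · have h2 : Measurable fun η : E n => gam c (q.1 - η) (‖η‖ ^ 2 - q.2) := by
        unfold gam
        fun_prop
      exact hV.mul h2
  · unfold Function.uncurry
    have h1 : Measurable fun z : E n × (E n × ℝ) => V z.1 := hV.comp measurable_fst
    have h3 : Measurable fun z : E n × (E n × ℝ) => F z.2 := hF.comp measurable_snd
    exact (h1.mul (hm.mul h3)).aemeasurable

lemma tonelli2 {F : E n × ℝ → ℝ≥0∞} (hF : Measurable F) {V : E n → ℝ≥0∞} (hV : Measurable V)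
    (c : ℝ) :
    ∫⁻ η, V η * ∫⁻ p : E n × ℝ, gam c p.1 p.2 * F (η + p.1, ‖η‖ ^ 2 - p.2) =
      ∫⁻ p : E n × ℝ, gam c p.1 p.2 * ∫⁻ η, V η * F (η + p.1, ‖η‖ ^ 2 - p.2) := by
  have hg := measurable_gam (n := n) c
  have hm : Measurable fun z : E n × (E n × ℝ) => F (z.1 + z.2.1, ‖z.1‖ ^ 2 - z.2.2) := by
    have h0 : Measurable fun z : E n × (E n × ℝ) =>
      ((z.1 + z.2.1, ‖z.1‖ ^ 2 - z.2.2) : E n × ℝ) := by fun_prop
    fun_prop
  have e1 : ∀ η, V η * ∫⁻ p : E n × ℝ, gam c p.1 p.2 * F (η + p.1, ‖η‖ ^ 2 - p.2) =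
      ∫⁻ p : E n × ℝ, V η * (gam c p.1 p.2 * F (η + p.1, ‖η‖ ^ 2 - p.2)) := by
    intro η
    rw [lintegral_const_mul]
    have h2 : Measurable fun q : E n × ℝ => F (η + q.1, ‖η‖ ^ 2 - q.2) := by
      fun_prop
    exact hg.mul h2
  simp_rw [e1]
  rw [lintegral_lintegral_swap]
  · refine lintegral_congr fun p => ?_
    rw [← lintegral_const_mul]
    · refine lintegral_congr fun η => ?_
      ring
    · have h2 : Measurable fun η : E n => F (η + p.1, ‖η‖ ^ 2 - p.2) := by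
        fun_prop
      exact hV.mul h2
  · unfold Function.uncurry
    have h1 : Measurable fun z : E n × (E n × ℝ) => V z.1 := hV.comp measurable_fst
    have h3 : Measurable fun z : E n × (E n × ℝ) => gam c z.2.1 z.2.2 := by
      unfold gam
      fun_prop
    exact (h1.mul (h3.mul hm)).aemeasurable

lemma Phi_le {r : ℕ} {A : Set (E n)} {s : E n → ℝ} {h : E n → ℂ} (a : Adm r A s h) (η : E n) :
    ‖Phi A s h η‖ₑ ^ 2 ≤ (∫⁻ p : E n × ℝ, gam Real.pi p.1 p.2) *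
      ∫⁻ p : E n × ℝ, gam Real.pi p.1 p.2 * ‖NN A s h (η + p.1, ‖η‖ ^ 2 - p.2)‖ₑ ^ 2 := by
  have hm : Measurable fun p : E n × ℝ => ‖NN A s h (η + p.1, ‖η‖ ^ 2 - p.2)‖ₑ :=
    ((measurable_NN a).comp (by fun_prop : Measurable fun p : E n × ℝ =>
      (η + p.1, ‖η‖ ^ 2 - p.2))).enorm
  refine le_trans ?_ (cs_gam hm Real.pi)
  gcongr
  rw [Phi_eq a]
  refine (enorm_integral_le_lintegral_enorm _).trans (le_of_eq ?_)
  refine lintegral_congr fun p => ?_
  rw [enorm_mul]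
  congr 1
  rw [← ofReal_norm, Complex.norm_real, Real.norm_eq_abs, abs_of_pos (gr_pos _ _)]
  rfl

lemma slice_le {r : ℕ} {A : Set (E n)} {s : E n → ℝ} {h : E n → ℂ} (a : Adm r A s h)
    {G : E n → ℝ≥0∞} {S : ℝ≥0∞} (hG : Measurable G) (hT : TTr r G S) (p : E n × ℝ) :
    ∫⁻ η, G η * ‖NN A s h (η + p.1, ‖η‖ ^ 2 - p.2)‖ₑ ^ 2 ≤
      ENNReal.ofReal (MM r) ^ 2 * (S * volume A) := by
  obtain ⟨h3, hh3⟩ : ∃ h3 : E n → ℂ, h3 = fun x => ((MM r)⁻¹ : ℂ) * (ha A s h x *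
    cexp (((2 * Real.pi * (inner ℝ x p.1 + s x * p.2) : ℝ) : ℂ) * I)) := ⟨_, rfl⟩
  have hM := MM_pos r
  have hMc : ((MM r : ℝ) : ℂ) ≠ 0 := by exact_mod_cast hM.ne'
  have a3 : Adm r A s h3 := by
    refine ⟨a.mA, a.sub, a.ms, a.bs, ?_, ?_⟩
    · have h1 := a.ms
      have h2 := measurable_ha a
      rw [hh3]
      fun_prop
    · intro x
      rw [hh3]
      simp only
      rw [norm_mul, norm_mul, Complex.norm_exp_ofReal_mul_I, mul_one, norm_inv, Complex.norm_real,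
        Real.norm_eq_abs, abs_of_pos hM, inv_mul_le_iff₀ hM, mul_one]
      exact norm_ha_le a x
  have e1 : ∀ η, NN A s h (η + p.1, ‖η‖ ^ 2 - p.2) = ((MM r : ℝ) : ℂ) * Phi A s h3 η := by
    intro η
    unfold NN Phi
    rw [← integral_const_mul]
    refine integral_congr_ae (Eventually.of_forall fun x => ?_)
    simp only [hh3]
    rw [split_ph]
    calc ha A s h x * (ph x (s x) 0 η *
          cexp (((2 * Real.pi * (inner ℝ x p.1 + s x * p.2) : ℝ) : ℂ) * I))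
        = (((MM r : ℝ) : ℂ) * ((MM r : ℝ) : ℂ)⁻¹) * (ha A s h x * (ph x (s x) 0 η *
          cexp (((2 * Real.pi * (inner ℝ x p.1 + s x * p.2) : ℝ) : ℂ) * I))) := by
          rw [mul_inv_cancel₀ hMc, one_mul]
      _ = _ := by ring
  have e2 : ∀ η, G η * ‖NN A s h (η + p.1, ‖η‖ ^ 2 - p.2)‖ₑ ^ 2 =
      ENNReal.ofReal (MM r) ^ 2 * (G η * ‖Phi A s h3 η‖ₑ ^ 2) := by
    intro η
    rw [e1, enorm_mul, mul_pow]
    have : ‖((MM r : ℝ) : ℂ)‖ₑ = ENNReal.ofReal (MM r) := by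
      rw [← ofReal_norm, Complex.norm_real, Real.norm_eq_abs, abs_of_pos hM]
    rw [this]
    ring
  simp_rw [e2]
  rw [lintegral_const_mul' _ _ (ENNReal.pow_ne_top ENNReal.ofReal_ne_top)]
  gcongr
  exact hT A s h3 a3

theorem stTransfer : StTransfer n := by
  intro r
  obtain ⟨J1, hJ1⟩ : ∃ J, J = ∫⁻ p : E n × ℝ, gam Real.pi p.1 p.2 := ⟨_, rfl⟩
  obtain ⟨J2, hJ2⟩ : ∃ J, J = ∫⁻ p : E n × ℝ, gam (Real.pi / 2) p.1 p.2 := ⟨_, rfl⟩
  have t1 : J1 ≠ ⊤ := by rw [hJ1]; exact lint_gam_ne_top Real.pi_pos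
  have t2 : J2 ≠ ⊤ := by rw [hJ2]; exact lint_gam_ne_top (by positivity)
  have t3 : J1 * J2 * ENNReal.ofReal (MM r) ^ 2 ≠ ⊤ :=
    ENNReal.mul_ne_top (ENNReal.mul_ne_top t1 t2) (ENNReal.pow_ne_top ENNReal.ofReal_ne_top)
  refine ⟨(J1 * J2 * ENNReal.ofReal (MM r) ^ 2).toNNReal, ?_⟩
  intro V G S c hV hG hT hK A s h a
  rw [ENNReal.coe_toNNReal t3]
  obtain ⟨F, hFd⟩ : ∃ F : E n × ℝ → ℝ≥0∞, F = fun q => ‖NN A s h q‖ₑ ^ 2 := ⟨_, rfl⟩
  have hF : Measurable F := by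
    rw [hFd]
    exact (measurable_NN a).enorm.pow_const 2
  have hg2 := measurable_gam (n := n) (Real.pi / 2)
  have hKm : ∀ (c : ℝ) {V : E n → ℝ≥0∞}, Measurable V →
      Measurable fun q : E n × ℝ => KV c V q.1 q.2 := by
    intro c V hV
    have hg := measurable_gam (n := n) c
    unfold KV
    have h1 : Measurable fun z : (E n × ℝ) × E n => V z.2 := hV.comp measurable_snd
    have h3 : Measurable fun z : (E n × ℝ) × E n =>
        gam c (z.1.1 - z.2) (‖z.2‖ ^ 2 - z.1.2) := by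
      unfold gam
      fun_prop
    exact (h1.mul h3).lintegral_prod_right'
  calc ∫⁻ η, V η * ‖Phi A s h η‖ₑ ^ 2
      ≤ ∫⁻ η, J1 * (V η * ∫⁻ p : E n × ℝ, gam Real.pi p.1 p.2 *
          F (η + p.1, ‖η‖ ^ 2 - p.2)) := by
        refine lintegral_mono fun η => ?_
        have := Phi_le a η
        rw [← hJ1] at this
        calc V η * ‖Phi A s h η‖ₑ ^ 2 ≤ V η * (J1 * ∫⁻ p : E n × ℝ, gam Real.pi p.1 p.2 *
              ‖NN A s h (η + p.1, ‖η‖ ^ 2 - p.2)‖ₑ ^ 2) := by gcongr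
          _ = _ := by rw [hFd, mul_left_comm]
    _ = J1 * ∫⁻ η, (V η * ∫⁻ p : E n × ℝ, gam Real.pi p.1 p.2 *
          F (η + p.1, ‖η‖ ^ 2 - p.2)) := lintegral_const_mul' _ _ t1
    _ = J1 * ∫⁻ q : E n × ℝ, F q * KV Real.pi V q.1 q.2 := by rw [tonelli1 hF hV]
    _ ≤ J1 * ∫⁻ q : E n × ℝ, c * (F q * KV (Real.pi / 2) G q.1 q.2) := by
        refine mul_le_mul' le_rfl (lintegral_mono fun q => ?_)
        calc F q * KV Real.pi V q.1 q.2 ≤ F q * (c * KV (Real.pi / 2) G q.1 q.2) := by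
              gcongr
              exact hK _ _
          _ = _ := by rw [mul_left_comm]
    _ = J1 * (c * ∫⁻ q : E n × ℝ, F q * KV (Real.pi / 2) G q.1 q.2) := by
        have hFK : Measurable fun q : E n × ℝ => F q * KV (Real.pi / 2) G q.1 q.2 :=
          hF.mul (hKm _ hG)
        rw [lintegral_const_mul c hFK]
    _ = J1 * (c * ∫⁻ p : E n × ℝ, gam (Real.pi / 2) p.1 p.2 *
          ∫⁻ η, G η * F (η + p.1, ‖η‖ ^ 2 - p.2)) := by
        rw [← tonelli1 hF hG, tonelli2 hF hG]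
    _ ≤ J1 * (c * ∫⁻ p : E n × ℝ, gam (Real.pi / 2) p.1 p.2 *
          (ENNReal.ofReal (MM r) ^ 2 * (S * volume A))) := by
        gcongr with p
        rw [hFd]
        exact slice_le a hG hT p
    _ = J1 * (c * (J2 * (ENNReal.ofReal (MM r) ^ 2 * (S * volume A)))) := by
        rw [lintegral_mul_const _ hg2, ← hJ2]
    _ = J1 * J2 * ENNReal.ofReal (MM r) ^ 2 * c * S * volume A := by ring

end Vale.Agent.P076.R2.H597
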